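import Mathlib

/-!
# Carleson–Hunt on the finite grid `ZMod (2^K)` : definitions  (architect helper66)

Everything is finite: the circle is the grid `X K = ZMod (2^K)`, `x ↔ x.val / 2^K`,
integrals are normalised sums `ave`.  Constants in all statements are uniform in `K`.
-/

open Finset

namespace Vale.Agent.P091.CH

/-- the grid with `2^K` points -/
abbrev X (K : ℕ) := ZMod (2 ^ K)

instance instNeZeroTwoPow (K : ℕ) : NeZero (2 ^ K : ℕ) := ⟨pow_ne_zero K two_ne_zero⟩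

/-- the circular distance to `0`, normalised: `min (x.val, 2^K - x.val) / 2^K ∈ [0, 1/2]` -/
noncomputable def nrm {K : ℕ} (x : X K) : ℝ := ‖ZMod.toAddCircle x‖

/-- normalised sum of a real function over the grid -/
noncomputable def ave {K : ℕ} (g : X K → ℝ) : ℝ := (∑ x, g x) / 2 ^ K

/-- normalised sum of a complex function over the grid -/
noncomputable def aveC {K : ℕ} (g : X K → ℂ) : ℂ := (∑ x, g x) / 2 ^ K

/-- normalised measure of a finite subset of the grid -/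
noncomputable def mu {K : ℕ} (A : Finset (X K)) : ℝ := (A.card : ℝ) / 2 ^ K

/-- the character `x ↦ e(ξ x / 2^K)` -/
noncomputable def ch {K : ℕ} (ξ : ℤ) (x : X K) : ℂ := ZMod.stdAddChar ((ξ : ZMod (2 ^ K)) * x)

/-- Fourier coefficient -/
noncomputable def fc {K : ℕ} (f : X K → ℂ) (ξ : ℤ) : ℂ := aveC (fun x => f x * ch (-ξ) x)

/-- the frequency window -/
noncomputable def win (K : ℕ) : Finset ℤ := Finset.Ico 0 (2 ^ K)

/-- kernel of a multiplier `m : ℤ → ℂ` (used only for `m` supported in the window) -/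
noncomputable def ker {K : ℕ} (m : ℤ → ℂ) (x : X K) : ℂ := ∑ ξ ∈ win K, m ξ * ch ξ x

/-- multiplier operator -/
noncomputable def mul {K : ℕ} (m : ℤ → ℂ) (f : X K → ℂ) (x : X K) : ℂ :=
  ∑ ξ ∈ win K, m ξ * fc f ξ * ch ξ x

/-- the one-sided partial sum `C_N f = ∑_{0 ≤ ξ < N} f̂(ξ) e(ξ x)` -/
noncomputable def CN {K : ℕ} (N : ℤ) (f : X K → ℂ) (x : X K) : ℂ :=
  mul (fun ξ => if ξ < N then 1 else 0) f x

/-- A tile `(k, j, l)`: time interval `[j 2^-k, (j+1) 2^-k)`, frequency interval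
`[l 2^k, (l+1) 2^k)`. -/
@[ext] structure Tile where
  k : ℕ
  j : ℕ
  l : ℤ
deriving DecidableEq

/-- the dyadic time interval number `j` of length `2^-k` (needs `k ≤ K`, `j < 2^k`) -/
def dy (K k j : ℕ) : Finset (X K) := Finset.univ.filter (fun x => x.val / 2 ^ (K - k) = j)

/-- time interval of a tile -/
def Tile.I (s : Tile) (K : ℕ) : Finset (X K) := dy K s.k s.j

/-- normalised length `2^-k` of the time interval -/
noncomputable def Tile.len (s : Tile) : ℝ := ((2:ℝ) ^ s.k)⁻¹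

/-- the sampling point number `r < 8` in the time interval `(k,j)`; `r = 0` is the left end -/
def pt (K k j r : ℕ) : X K := ((j * 2 ^ (K - k) + r * 2 ^ (K - k - 3) : ℕ) : ZMod (2 ^ K))

/-- left end point of the time interval of `s` -/
def Tile.c (s : Tile) (K : ℕ) : X K := pt K s.k s.j 0

/-- admissible tiles: `k + 6 ≤ K`, position inside the circle, frequency interval in the middle
half of the window (so that nothing wraps around) -/
def Tile.Ok (s : Tile) (K : ℕ) : Prop :=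
  s.k + 6 ≤ K ∧ s.j < 2 ^ s.k ∧ (2:ℤ) ^ K ≤ 4 * (s.l * 2 ^ s.k) ∧
    4 * ((s.l + 1) * 2 ^ s.k) ≤ 3 * 2 ^ K

/-- weight of the interval with left end `c` and length `2^-k` -/
noncomputable def wt {K : ℕ} (k : ℕ) (c : X K) (x : X K) : ℝ := (1 + 2 ^ k * nrm (x - c))⁻¹ ^ 10

/-- Symbols: `m k l` is supported in `V_{k,l} = [(l-10) 2^k, (l-2) 2^k)` and is smooth at
scale `2^k` (20 differences). -/
def IsSym (B : ℝ) (m : ℕ → ℤ → ℤ → ℂ) : Prop :=
  ∀ k l, (∀ ξ, ξ < (l - 10) * 2 ^ k ∨ (l - 2) * 2 ^ k ≤ ξ → m k l ξ = 0) ∧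
    ∀ i ≤ 20, ∀ ξ, ‖(fwdDiff (1:ℤ))^[i] (m k l) ξ‖ ≤ B * ((2:ℝ) ^ (k * i))⁻¹

/-- coefficient of `f` on the tile `s`: value at the sampling point `r` of the multiplier -/
noncomputable def co {K : ℕ} (m : ℕ → ℤ → ℤ → ℂ) (r : ℕ) (f : X K → ℂ) (s : Tile) : ℂ :=
  mul (m s.k s.l) f (pt K s.k s.j r)

/-- packet of the tile `s` (L¹-normalised, size `2^k` near `I_s`) -/
noncomputable def pk {K : ℕ} (m : ℕ → ℤ → ℤ → ℂ) (r : ℕ) (s : Tile) (x : X K) : ℂ :=
  ker (m s.k s.l) (x - pt K s.k s.j r)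

/-- the `N`-side coefficient -/
noncomputable def bco {K : ℕ} (m : ℕ → ℤ → ℤ → ℂ) (r : ℕ) (g : X K → ℂ) (N : X K → ℤ)
    (s : Tile) : ℂ :=
  aveC (fun x => g x * pk m r s x * (if N x / 2 ^ s.k = s.l then 1 else 0))

/-- The tile `s` lies in the tree of width `A` with top (time interval `(kT,jT)`, frequency `ξ`) -/
def InTree (A : ℤ) (kT jT : ℕ) (ξ : ℤ) (s : Tile) : Prop :=
  kT ≤ s.k ∧ s.j / 2 ^ (s.k - kT) = jT ∧ |s.l - ξ / 2 ^ s.k| ≤ A

/-- `T` is a tree (width 11) with the given top -/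
def IsTree (T : Finset Tile) (kT jT : ℕ) (ξ : ℤ) : Prop := ∀ s ∈ T, InTree 11 kT jT ξ s

/-- `T` is a lacunary tree (width 1) with the given top -/
def IsLac (T : Finset Tile) (kT jT : ℕ) (ξ : ℤ) : Prop := ∀ s ∈ T, InTree 1 kT jT ξ s

/-- sparse class of tiles -/
def Sparse (P : Finset Tile) : Prop :=
  ∀ s ∈ P, ∀ t ∈ P, s.k % 5 = t.k % 5 ∧ s.l % 16 = t.l % 16

/-- the standing assumption on a tile set -/
def Good (K : ℕ) (P : Finset Tile) : Prop := Sparse P ∧ ∀ s ∈ P, s.Ok K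

/-- the energy of `P` is at most `e` for a coefficient function `a : Tile → ℂ` -/
def EnLe (a : Tile → ℂ) (P : Finset Tile) (e : ℝ) : Prop :=
  ∀ T ⊆ P, ∀ kT jT ξ, IsLac T kT jT ξ →
    ∑ s ∈ T, s.len * ‖a s‖ ^ 2 ≤ e ^ 2 * ((2:ℝ) ^ kT)⁻¹

/-- `E_u = {x ∈ E : N x ∈ ω_u}`, weighted measure -/
noncomputable def dens {K : ℕ} (E : Finset (X K)) (N : X K → ℤ) (u : Tile) : ℝ :=
  ave (fun x => if x ∈ E ∧ N x / 2 ^ u.k = u.l then wt u.k (u.c K) x else 0)

/-- `u` dominates `s`: `I_s ⊆ I_u` and `ω_u` lies in the 11-neighbourhood of `ω_s` -/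
def Dom (s u : Tile) : Prop :=
  u.k ≤ s.k ∧ s.j / 2 ^ (s.k - u.k) = u.j ∧ |u.l / 2 ^ (s.k - u.k) - s.l| ≤ 11

/-- the mass of `P` is at most `μ` -/
def MsLe {K : ℕ} (E : Finset (X K)) (N : X K → ℤ) (P : Finset Tile) (μ : ℝ) : Prop :=
  ∀ s ∈ P, ∀ u : Tile, Dom s u → dens E N u ≤ μ * u.len

/-- centred dyadic maximal function on the grid -/
noncomputable def MX {K : ℕ} (f : X K → ℝ) (x : X K) : ℝ :=
  (Finset.range (K + 1)).sup' ⟨0, by simp⟩
    (fun κ => 2 ^ κ * ave (fun y => if nrm (x - y) ≤ ((2:ℝ) ^ κ)⁻¹ then |f y| else 0))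

/-- a cover of `P` by a light part and finitely many trees -/
structure Forest where
  ι : Finset ℕ
  T : ℕ → Finset Tile
  kT : ℕ → ℕ
  jT : ℕ → ℕ
  ξ : ℕ → ℤ

/-- total length of the tops -/
noncomputable def Forest.tot (F : Forest) : ℝ := ∑ i ∈ F.ι, ((2:ℝ) ^ (F.kT i))⁻¹

/-- `P` is the union of `L` and of the trees of `F` (all inside `P`), pairwise disjoint -/
structure Forest.Splits (F : Forest) (P L : Finset Tile) : Prop where
  light : L ⊆ P
  sub : ∀ i ∈ F.ι, F.T i ⊆ P \ L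
  tree : ∀ i ∈ F.ι, IsTree (F.T i) (F.kT i) (F.jT i) (F.ξ i)
  cover : ∀ s ∈ P, s ∈ L ∨ ∃ i ∈ F.ι, s ∈ F.T i
  disj : ∀ i ∈ F.ι, ∀ i' ∈ F.ι, i ≠ i' → Disjoint (F.T i) (F.T i')

end Vale.Agent.P091.CH
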