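import Vale.Agent.P091.CH.Props

/-!
# The light part: L² model theorem with a gain in the density, x-dependent truncation
(architect helper66)

`x` sees the tile `s` iff `N x ∈ ω_s` and `s.k < κ x`.  The function `κ` is arbitrary in TREE and
in the model theorem; in P_LIGHT it is a stopping rule for the full (Lacey–Thiele) density.
-/

open Finset

namespace Vale.Agent.P091.CH

/-- truncated `N`-side coefficient -/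
noncomputable def bcoT {K : ℕ} (m : ℕ → ℤ → ℤ → ℂ) (r : ℕ) (g : X K → ℂ) (N : X K → ℤ)
    (κ : X K → ℕ) (s : Tile) : ℂ :=
  aveC (fun x => g x * pk m r s x * (if N x / 2 ^ s.k = s.l ∧ s.k < κ x then 1 else 0))

/-- TREE with an arbitrary `x`-dependent truncation (the case `κ = K` is P_TR) -/
def P_TRT : Prop := ∀ B : ℝ, ∃ C : ℝ, ∀ m mt, IsSym B m → IsSym B mt → ∀ (K r : ℕ), r < 8 →
  ∀ (f g : X K → ℂ) (N : X K → ℤ) (κ : X K → ℕ) (E : Finset (X K)) (T : Finset Tile)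
    (kT jT : ℕ) (ξ : ℤ) (e μ : ℝ), 0 ≤ e → 0 ≤ μ → (∀ x, ‖g x‖ ≤ if x ∈ E then 1 else 0) →
    Good K T → IsTree T kT jT ξ → EnLe (co m r f) T e → MsLe E N T μ →
      ∑ s ∈ T, s.len * ‖co m r f s‖ * ‖bcoT mt r g N κ s‖ ≤ C * e * μ * ((2:ℝ) ^ kT)⁻¹

/-- MODELT: tiles of (full) mass at most `μ`, arbitrary `κ` -/
def P_MODT : Prop := ∀ B : ℝ, ∃ C : ℝ, ∀ m mt, IsSym B m → IsSym B mt → ∀ (K r : ℕ), r < 8 →
  ∀ (f g : X K → ℂ) (N : X K → ℤ) (κ : X K → ℕ) (E : Finset (X K)) (P : Finset Tile) (μ : ℝ),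
    0 < μ → (∀ x, ‖g x‖ ≤ if x ∈ E then 1 else 0) → (∀ s ∈ P, s.Ok K) → MsLe E N P μ →
      ∑ s ∈ P, s.len * ‖co m r f s‖ * ‖bcoT mt r g N κ s‖
        ≤ C * √μ * √(ave (fun x => ‖f x‖ ^ 2)) * √(mu E)

/-- MSU: maximal heavy tiles -/
def P_MSU : Prop := ∃ C : ℝ, ∀ (K : ℕ) (E : Finset (X K)) (N : X K → ℤ) (P : Finset Tile) (μ : ℝ),
  (∀ s ∈ P, s.Ok K) → 0 < μ →
    ∃ U : Finset Tile, (∀ u ∈ U, u.k + 6 ≤ K ∧ u.j < 2 ^ u.k ∧ μ * u.len < dens E N u) ∧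
      (∀ s ∈ P, (∀ u, Dom s u → dens E N u ≤ μ * u.len) ∨ ∃ u ∈ U, Dom s u) ∧
      (∑ u ∈ U, u.len) * μ ≤ C * mu E

/-- FAR: every tile of `P` lies below a tile `u ∈ U` which is far from all points seeing it -/
def P_FAR : Prop := ∀ B : ℝ, ∃ C : ℝ, ∀ m mt, IsSym B m → IsSym B mt → ∀ (K r : ℕ), r < 8 →
  ∀ (f g : X K → ℂ) (N : X K → ℤ) (κ : X K → ℕ) (E : Finset (X K)) (P U : Finset Tile)
    (R M : ℝ), 4 ≤ R → (∀ x, ‖f x‖ ≤ M) → (∀ x, ‖g x‖ ≤ if x ∈ E then 1 else 0) →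
    (∀ s ∈ P, s.Ok K) → (∀ u ∈ U, u.k + 6 ≤ K ∧ u.j < 2 ^ u.k) →
    (∀ s ∈ P, ∃ u ∈ U, Dom s u ∧ ∀ x ∈ E, N x / 2 ^ s.k = s.l → s.k < κ x →
      R ≤ 1 + 2 ^ u.k * nrm (x - u.c K)) →
      ∑ s ∈ P, s.len * ‖co m r f s‖ * ‖bcoT mt r g N κ s‖
        ≤ C * M * R⁻¹ ^ 15 * ∑ u ∈ U, u.len

/-- the tile of the point `x` at level `k` -/
def tlx {K : ℕ} (k : ℕ) (N : X K → ℤ) (x : X K) : Tile := ⟨k, x.val / 2 ^ (K - k), N x / 2 ^ k⟩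

/-- the stopping hypothesis: as long as `k < κ x`, no tile dominating the tile of `x` at level
`k` has density larger than `δ` (FULL density: all `x' ∈ E`) -/
def StopLe {K : ℕ} (E : Finset (X K)) (N : X K → ℤ) (κ : X K → ℕ) (δ : ℝ) : Prop :=
  ∀ x ∈ E, ∀ k < κ x, ∀ u : Tile, Dom (tlx k N x) u → dens E N u ≤ δ * u.len

/-- LIGHT, model form -/
def P_LIGHT : Prop := ∀ B : ℝ, ∃ C : ℝ, ∀ m mt, IsSym B m → IsSym B mt → ∀ (K r : ℕ), r < 8 →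
  ∀ (f g : X K → ℂ) (N : X K → ℤ) (κ : X K → ℕ) (E : Finset (X K)) (P : Finset Tile)
    (δ M : ℝ), 0 < δ → δ ≤ 1 → (∀ x, ‖f x‖ ≤ M) → (∀ x, ‖g x‖ ≤ if x ∈ E then 1 else 0) →
    (∀ s ∈ P, s.Ok K) → StopLe E N κ δ →
      ∑ s ∈ P, s.len * ‖co m r f s‖ * ‖bcoT mt r g N κ s‖
        ≤ C * δ ^ (1/4 : ℝ) * (√(ave (fun x => ‖f x‖ ^ 2)) + M)

/-- LIGHT for the truncated tile sum of P_DISC: `g` supported in `E`, `N` in the middle half -/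
def P_LIGHTN : Prop := ∀ B : ℝ, ∃ C : ℝ, ∀ ψ ψt, IsSym B ψ → IsSym B ψt → ∀ (K : ℕ), 8 ≤ K →
  ∀ (f g : X K → ℂ) (N : X K → ℤ) (κ : X K → ℕ) (E : Finset (X K)) (δ M : ℝ),
    0 < δ → δ ≤ 1 → (∀ x, ‖f x‖ ≤ M) → (∀ x, ‖g x‖ ≤ if x ∈ E then 1 else 0) →
    (∀ x, 2 ^ K ≤ 4 * N x ∧ 4 * N x < 3 * 2 ^ K) → (∀ x, κ x + 6 ≤ K) → StopLe E N κ δ →
      ‖aveC (fun x => g x * ∑ r ∈ range 8, ∑ k ∈ range (κ x), ∑ j ∈ range (2 ^ k),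
          (8:ℂ)⁻¹ * (tl k j (N x)).len * co ψ r f (tl k j (N x)) * pk ψt r (tl k j (N x)) x)‖
        ≤ C * δ ^ (1/4 : ℝ) * (√(ave (fun x => ‖f x‖ ^ 2)) + M)

end Vale.Agent.P091.CH
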