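import Vale.Agent.P091.CH.Defs

/-!
# Carleson–Hunt on the finite grid : the rows (Props)  (architect helper66)

All constants are uniform in `K` (and in everything else quantified after them).
-/

open Finset

namespace Vale.Agent.P091.CH

/-! ## GEO : the metric and the weights -/

/-- GEO1: `∫ (1 + 2^k |x - c|)^-2 ≤ C 2^-k` -/
def P_GEO1 : Prop := ∃ C : ℝ, ∀ (K k : ℕ) (c : X K), k ≤ K →
  ave (fun x => (1 + 2 ^ k * nrm (x - c))⁻¹ ^ 2) ≤ C * ((2:ℝ) ^ k)⁻¹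

/-- GEO2: sum over the `2^k` intervals of one scale (any sampling point `r < 8`) -/
def P_GEO2 : Prop := ∃ C : ℝ, ∀ (K k r : ℕ) (x : X K), k + 3 ≤ K → r < 8 →
  ∑ j ∈ range (2 ^ k), (1 + 2 ^ k * nrm (x - pt K k j r))⁻¹ ^ 2 ≤ C

/-- GEO3: the points of a dyadic interval and its sampling points are within `2^-k` -/
def P_GEO3 : Prop := ∀ (K k j r : ℕ) (x : X K), k + 3 ≤ K → r < 8 → j < 2 ^ k → x ∈ dy K k j →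
  nrm (x - pt K k j r) ≤ ((2:ℝ) ^ k)⁻¹ ∧ nrm (x - pt K k j 0) ≤ ((2:ℝ) ^ k)⁻¹

/-- GEO4: measure of a dyadic interval -/
def P_GEO4 : Prop := ∀ (K k j : ℕ), k ≤ K → j < 2 ^ k → mu (dy K k j) = ((2:ℝ) ^ k)⁻¹

/-! ## KER : decay of kernels -/

/-- KER1: decay -/
def P_KER1 : Prop := ∀ B : ℝ, ∃ C : ℝ, ∀ m, IsSym B m → ∀ (K k : ℕ) (l : ℤ), k ≤ K →
  0 ≤ (l - 10) * 2 ^ k → (l - 2) * 2 ^ k ≤ 2 ^ K → ∀ x : X K,
    ‖ker (m k l) x‖ ≤ C * 2 ^ k * (1 + 2 ^ k * nrm x)⁻¹ ^ 20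

/-- KER2: regularity of the demodulated kernel (`ξ` within `20·2^k` of `l 2^k`) -/
def P_KER2 : Prop := ∀ B : ℝ, ∃ C : ℝ, ∀ m, IsSym B m → ∀ (K k : ℕ) (l ξ : ℤ), k ≤ K →
  0 ≤ (l - 10) * 2 ^ k → (l - 2) * 2 ^ k ≤ 2 ^ K → |ξ - l * 2 ^ k| ≤ 20 * 2 ^ k →
  ∀ x y : X K, nrm (x - y) ≤ 4 * ((2:ℝ) ^ k)⁻¹ →
    ‖ch (-ξ) x * ker (m k l) x - ch (-ξ) y * ker (m k l) y‖
      ≤ C * 4 ^ k * nrm (x - y) * (1 + 2 ^ k * nrm x)⁻¹ ^ 20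

/-! ## FOU : Fourier analysis on the grid -/

def P_FOU1 : Prop := ∀ (K : ℕ) (m : ℤ → ℂ) (f : X K → ℂ) (x : X K),
  mul m f x = aveC (fun y => f y * ker m (x - y))

def P_FOU2 : Prop := ∀ (K : ℕ) (f : X K → ℂ) (x : X K), f x = ∑ ξ ∈ win K, fc f ξ * ch ξ x

def P_FOU3 : Prop := ∀ (K : ℕ) (f : X K → ℂ),
  ave (fun x => ‖f x‖ ^ 2) = ∑ ξ ∈ win K, ‖fc f ξ‖ ^ 2

/-- orthogonality of characters -/
def P_FOU4 : Prop := ∀ (K : ℕ) (ξ η : ℤ), ξ ∈ win K → η ∈ win K →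
  aveC (fun x : X K => ch ξ x * (starRingEnd ℂ) (ch η x)) = if ξ = η then 1 else 0

/-! ## HL : the maximal function -/

def P_HL1 : Prop := ∃ C : ℝ, ∀ (K : ℕ) (f : X K → ℝ) (t : ℝ), 0 < t →
  t * mu (univ.filter (fun x => t < MX f x)) ≤ C * ave (fun x => |f x|)

def P_HL2 : Prop := ∃ C : ℝ, ∀ (K : ℕ) (f : X K → ℝ),
  ave (fun x => MX f x ^ 2) ≤ C * ave (fun x => f x ^ 2)

/-- decaying averages, at every point `x` within `16·2^-k` of the centre `c` -/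
def P_HL3 : Prop := ∃ C : ℝ, ∀ (K k : ℕ) (f : X K → ℝ) (c x : X K), k ≤ K →
  nrm (x - c) ≤ 16 * ((2:ℝ) ^ k)⁻¹ →
  2 ^ k * ave (fun y => |f y| * (1 + 2 ^ k * nrm (y - c))⁻¹ ^ 2) ≤ C * MX f x

/-! ## BES : almost orthogonality -/

/-- BES1: interaction of two packets, `|I_t| ≤ |I_s|` -/
def P_BES1 : Prop := ∀ B : ℝ, ∃ C : ℝ, ∀ m, IsSym B m → ∀ (K r : ℕ), r < 8 →
  ∀ s t : Tile, s.Ok K → t.Ok K → s.k ≤ t.k →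
    ‖aveC (fun x : X K => pk m r s x * (starRingEnd ℂ) (pk m r t x))‖
      ≤ C * 2 ^ s.k * (1 + 2 ^ s.k * nrm (s.c K - t.c K))⁻¹ ^ 15

/-- BES2: packets of disjoint frequency supports are orthogonal -/
def P_BES2 : Prop := ∀ B : ℝ, ∀ m, IsSym B m → ∀ (K r : ℕ) (s t : Tile), s.Ok K → t.Ok K →
  ((s.l - 2) * 2 ^ s.k ≤ (t.l - 10) * 2 ^ t.k ∨ (t.l - 2) * 2 ^ t.k ≤ (s.l - 10) * 2 ^ s.k) →
    aveC (fun x : X K => pk m r s x * (starRingEnd ℂ) (pk m r t x)) = 0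

/-- BES3: synthesis bound for a lacunary tree -/
def P_BES3 : Prop := ∀ B : ℝ, ∃ C : ℝ, ∀ m, IsSym B m → ∀ (K r : ℕ), r < 8 →
  ∀ (T : Finset Tile) (kT jT : ℕ) (ξ : ℤ), Good K T → IsLac T kT jT ξ → ∀ c : Tile → ℂ,
    ave (fun x : X K => ‖∑ s ∈ T, s.len * c s * pk m r s x‖ ^ 2)
      ≤ C * ∑ s ∈ T, s.len * ‖c s‖ ^ 2

/-- BES4: analysis bound for a lacunary tree -/
def P_BES4 : Prop := ∀ B : ℝ, ∃ C : ℝ, ∀ m, IsSym B m → ∀ (K r : ℕ), r < 8 →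
  ∀ (T : Finset Tile) (kT jT : ℕ) (ξ : ℤ), Good K T → IsLac T kT jT ξ → ∀ f : X K → ℂ,
    ∑ s ∈ T, s.len * ‖co m r f s‖ ^ 2 ≤ C * ave (fun x => ‖f x‖ ^ 2)

/-! ## the five lemmas -/

/-- ENERGY -/
def P_EN : Prop := ∀ B : ℝ, ∃ C : ℝ, ∀ m, IsSym B m → ∀ (K r : ℕ), r < 8 →
  ∀ (f : X K → ℂ) (P : Finset Tile) (e : ℝ), Good K P → 0 < e → EnLe (co m r f) P e →
    ∃ (L : Finset Tile) (F : Forest), F.Splits P L ∧ EnLe (co m r f) L (e / 2) ∧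
      F.tot * e ^ 2 ≤ C * ave (fun x => ‖f x‖ ^ 2)

/-- MASS -/
def P_MS : Prop := ∃ C : ℝ, ∀ (K : ℕ) (E : Finset (X K)) (N : X K → ℤ) (P : Finset Tile) (μ : ℝ),
  Good K P → 0 < μ → MsLe E N P μ →
    ∃ (L : Finset Tile) (F : Forest), F.Splits P L ∧ MsLe E N L (μ / 4) ∧ F.tot * μ ≤ C * mu E

/-- MASS0: the mass is always bounded -/
def P_MS0 : Prop := ∃ C : ℝ, ∀ (K : ℕ) (E : Finset (X K)) (N : X K → ℤ) (P : Finset Tile),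
  Good K P → MsLe E N P C

/-- TREE -/
def P_TR : Prop := ∀ B : ℝ, ∃ C : ℝ, ∀ m mt, IsSym B m → IsSym B mt → ∀ (K r : ℕ), r < 8 →
  ∀ (f g : X K → ℂ) (N : X K → ℤ) (E : Finset (X K)) (T : Finset Tile) (kT jT : ℕ) (ξ : ℤ)
    (e μ : ℝ), 0 ≤ e → 0 ≤ μ → (∀ x, ‖g x‖ ≤ if x ∈ E then 1 else 0) →
    Good K T → IsTree T kT jT ξ → EnLe (co m r f) T e → MsLe E N T μ →
      ∑ s ∈ T, s.len * ‖co m r f s‖ * ‖bco mt r g N s‖ ≤ C * e * μ * ((2:ℝ) ^ kT)⁻¹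

/-- SIZE: energy of the tiles whose time interval meets `{M f ≤ λ}` -/
def P_SZ : Prop := ∀ B : ℝ, ∃ C : ℝ, ∀ m, IsSym B m → ∀ (K r : ℕ), r < 8 →
  ∀ (f : X K → ℂ) (P : Finset Tile) (lam : ℝ), Good K P → 0 ≤ lam →
    (∀ s ∈ P, ∃ x ∈ s.I K, MX (fun y => ‖f y‖) x ≤ lam) → EnLe (co m r f) P (C * lam)

/-- EXC: the tiles inside the exceptional set `{M f > λ}` on which `g` vanishes -/
def P_EX : Prop := ∀ B : ℝ, ∃ C : ℝ, ∀ m mt, IsSym B m → IsSym B mt → ∀ (K r : ℕ), r < 8 →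
  ∀ (f g : X K → ℂ) (N : X K → ℤ) (P : Finset Tile) (lam : ℝ), (∀ s ∈ P, s.Ok K) → 0 < lam →
    (∀ s ∈ P, ∀ x ∈ s.I K, lam < MX (fun y => ‖f y‖) x) →
    (∀ x, ‖g x‖ ≤ 1) → (∀ x, lam < MX (fun y => ‖f y‖) x → g x = 0) →
      ∑ s ∈ P, s.len * ‖co m r f s‖ * ‖bco mt r g N s‖ ≤ C * ave (fun x => ‖f x‖)

/-! ## MODEL : the model theorem (absolutely summed, arbitrary finite tile sets) -/

/-- MODEL0: any lower bound `e0` of the energy; this is the form with the energy visible -/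
def P_MOD0 : Prop := ∀ B : ℝ, ∃ C : ℝ, ∀ m mt, IsSym B m → IsSym B mt → ∀ (K r : ℕ), r < 8 →
  ∀ (f g : X K → ℂ) (N : X K → ℤ) (E : Finset (X K)) (P : Finset Tile) (e0 : ℝ), 0 < e0 →
    (∀ x, ‖g x‖ ≤ if x ∈ E then 1 else 0) → Good K P → EnLe (co m r f) P e0 → 0 < mu E →
      ∑ s ∈ P, s.len * ‖co m r f s‖ * ‖bco mt r g N s‖
        ≤ C * mu E * e0 *
          (1 + Real.posLog (ave (fun x => ‖f x‖ ^ 2) / (mu E * e0 ^ 2)))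

/-- MODEL: `|f| ≤ 1`, `d = |f|_1`, `g` supported in `G` minus `{M f > A d / |G|}` -/
def P_MOD : Prop := ∀ B A : ℝ, ∃ C : ℝ, ∀ m mt, IsSym B m → IsSym B mt → ∀ (K r : ℕ), r < 8 →
  ∀ (f g : X K → ℂ) (N : X K → ℤ) (G : Finset (X K)) (P : Finset Tile),
    (∀ s ∈ P, s.Ok K) → (∀ x, ‖f x‖ ≤ 1) → (∀ x, ‖g x‖ ≤ if x ∈ G then 1 else 0) →
    0 < ave (fun x => ‖f x‖) → 0 < mu G →
    (ave (fun x => ‖f x‖) ≤ mu G →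
      (∀ x, g x ≠ 0 → MX (fun y => ‖f y‖) x ≤ A * ave (fun x => ‖f x‖) / mu G) →
      ∑ s ∈ P, s.len * ‖co m r f s‖ * ‖bco mt r g N s‖
        ≤ C * ave (fun x => ‖f x‖) * (1 + Real.log (mu G / ave (fun x => ‖f x‖)))) ∧
    (mu G ≤ ave (fun x => ‖f x‖) →
      ∑ s ∈ P, s.len * ‖co m r f s‖ * ‖bco mt r g N s‖
        ≤ C * mu G * (1 + Real.log (ave (fun x => ‖f x‖) / mu G)))

/-! ## DISC : exact discretisation -/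

/-- the tile `(k, j, N / 2^k)` -/
def tl (k j : ℕ) (N : ℤ) : Tile := ⟨k, j, N / 2 ^ k⟩

/-- DISC: for `f` without frequencies below `2^K/4` and `N` in the middle half,
`C_N f` is a tile sum up to `C M f`. -/
def P_DISC : Prop := ∃ (B C : ℝ) (ψ ψt : ℕ → ℤ → ℤ → ℂ), IsSym B ψ ∧ IsSym B ψt ∧
  ∀ (K : ℕ), 8 ≤ K → ∀ f : X K → ℂ, (∀ ξ : ℤ, 0 ≤ ξ → 4 * ξ < 2 ^ K → fc f ξ = 0) →
    ∀ N : ℤ, 2 ^ K ≤ 4 * N → 4 * N < 3 * 2 ^ K → ∀ x : X K,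
      ‖CN N f x - ∑ r ∈ range 8, ∑ k ∈ range (K - 6), ∑ j ∈ range (2 ^ k),
          (8:ℂ)⁻¹ * (tl k j N).len * co ψ r f (tl k j N) * pk ψt r (tl k j N) x‖
        ≤ C * MX (fun y => ‖f y‖) x

/-! ## WEAK : the discrete Carleson–Hunt weak type estimate -/

open Classical in
def P_WEAK : Prop := ∃ C : ℝ, ∀ (K : ℕ), 8 ≤ K → ∀ f : X K → ℂ, (∀ x, ‖f x‖ ≤ 1) →
  (∀ ξ : ℤ, 0 ≤ ξ → 4 * ξ < 2 ^ K → fc f ξ = 0) → ∀ t : ℝ, 0 < t →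
    mu (univ.filter (fun x => ∃ N : ℤ, 2 ^ K ≤ 4 * N ∧ 4 * N < 3 * 2 ^ K ∧ t < ‖CN N f x‖))
      ≤ C / t * ave (fun x => ‖f x‖) * (1 + Real.posLog (1 / t))

/-! ## CH : the theorem on the circle -/

/-- symmetric partial sums on `AddCircle T` -/
noncomputable def SN {T : ℝ} [Fact (0 < T)] (N : ℕ) (f : AddCircle T → ℂ) (x : AddCircle T) : ℂ :=
  ∑ n ∈ Finset.Icc (-(N:ℤ)) N, fourierCoeff f n * fourier n x

def P_CH : Prop := ∃ C : ℝ, ∀ (T : ℝ) [Fact (0 < T)] (f : AddCircle T → ℂ),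
  MeasureTheory.AEStronglyMeasurable f AddCircle.haarAddCircle → (∀ x, ‖f x‖ ≤ 1) →
  ∀ t : ℝ, 0 < t →
    (AddCircle.haarAddCircle {x | ∃ N : ℕ, t < ‖SN N f x‖}).toReal
      ≤ C / t * (∫ x, ‖f x‖ ∂AddCircle.haarAddCircle) * (1 + Real.posLog (1 / t))

end Vale.Agent.P091.CH
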